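import Mathlib

/-!
# Finite matroid intersection (rank form)

Edmonds' matroid intersection theorem for two matroids on a common finite ground set,
in the form: if `k ≤ r_M(A) + r_N(E \ A)` for every `A ⊆ E`, then there is a common
independent set with exactly `k` elements.  The proof is the classical deletion/contraction
induction on the size of the ground set.
-/

namespace Vale.Agent.H18

open Set Matroid

variable {α : Type*}

/-- Rank of a set after contracting a nonloop not in the set. -/
theorem eRk_contractElem_add_one (M : Matroid α) {e : α} (he : M.IsNonloop e) {B : Set α}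
    (hB : B ⊆ M.E \ {e}) : (M ／ {e}).eRk B + 1 = M.eRk (insert e B) := by
  obtain ⟨I, hI⟩ := (M ／ {e}).exists_isBasis B (by simpa using hB)
  have hI' : M.IsBasis (I ∪ {e}) (B ∪ {e}) :=
    he.indep.union_isBasis_union_of_contract_isBasis hI
  have heI : e ∉ I := fun h => (hB (hI.subset h)).2 rfl
  rw [← hI.encard_eq_eRk, ← union_singleton, ← hI'.encard_eq_eRk, union_singleton,
    encard_insert_of_notMem heI]

theorem exists_common_nonloop (M N : Matroid α)
    (h : (1 : ℕ∞) ≤ M.eRk M.loops + N.eRk (M.E \ M.loops)) :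
    ∃ e ∈ M.E, M.IsNonloop e ∧ N.IsNonloop e := by
  by_contra hcon
  push Not at hcon
  have h1 : M.eRk M.loops = 0 := M.eRk_loops
  have h2 : N.eRk (M.E \ M.loops) = 0 := by
    rw [eRk_eq_zero_iff']
    rintro x ⟨⟨hxE, hxl⟩, hxN⟩
    have hnl : M.IsNonloop x := by
      rw [← not_isLoop_iff hxE]
      exact hxl
    have := hcon x hxE hnl
    rw [← not_isLoop_iff hxN] at this
    exact not_not.mp this
  rw [h1, h2] at h
  simp at h

theorem eRk_ne_top_of_finite (M : Matroid α) {X : Set α} (hX : X.Finite) : M.eRk X ≠ ⊤ :=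
  ne_top_of_le_ne_top (encard_ne_top_iff.mpr hX) (M.eRk_le_encard X)

/-- Edmonds' matroid intersection theorem on a finite ground set, rank form. -/
theorem finite_inter_aux (n : ℕ) : ∀ (M N : Matroid α), M.E = N.E → M.E.Finite → M.E.ncard = n →
    ∀ k : ℕ, (∀ A ⊆ M.E, (k : ℕ∞) ≤ M.eRk A + N.eRk (M.E \ A)) →
    ∃ I, M.Indep I ∧ N.Indep I ∧ I.encard = k := by
  induction n using Nat.strong_induction_on with
  | _ n ih =>
    intro M N hE hfin hn k hk
    rcases Nat.eq_zero_or_pos k with rfl | hkpos
    · exact ⟨∅, M.empty_indep, N.empty_indep, by simp⟩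
    obtain ⟨k', rfl⟩ : ∃ k', k = k' + 1 := ⟨k - 1, by omega⟩
    have h1 : (1 : ℕ∞) ≤ M.eRk M.loops + N.eRk (M.E \ M.loops) := by
      refine le_trans ?_ (hk _ M.loops_subset_ground)
      exact_mod_cast hkpos
    obtain ⟨e, heE, heM, heN⟩ := exists_common_nonloop M N h1
    have hcard : (M.E \ {e}).ncard < n := by
      rw [← hn]
      exact ncard_sdiff_singleton_lt_of_mem heE hfin
    have hfin' : (M.E \ {e}).Finite := hfin.sdiff
    -- deletion
    by_cases hdel : ∀ A ⊆ M.E \ {e}, ((k' + 1 : ℕ) : ℕ∞) ≤ M.eRk A + N.eRk ((M.E \ {e}) \ A)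
    · obtain ⟨I, hIM, hIN, hIc⟩ := ih _ hcard (M ＼ {e}) (N ＼ {e})
        (by simp [delete_ground, hE]) (by simpa [delete_ground] using hfin') rfl (k' + 1)
        (by
          intro A hA
          have hA' : A ⊆ M.E \ {e} := by simpa [delete_ground] using hA
          have := hdel A hA'
          rw [delete_eq_restrict, delete_eq_restrict, restrict_eRk_eq _ hA',
            restrict_eRk_eq _ (by rw [← hE]; simp)]
          simpa [delete_ground] using this)
      exact ⟨I, hIM.of_delete, hIN.of_delete, hIc⟩
    -- contraction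
    by_cases hcon : ∀ B ⊆ M.E \ {e}, ((k' : ℕ) : ℕ∞) ≤
        (M ／ {e}).eRk B + (N ／ {e}).eRk ((M.E \ {e}) \ B)
    · obtain ⟨I, hIM, hIN, hIc⟩ := ih _ hcard (M ／ {e}) (N ／ {e})
        (by simp [contract_ground, hE]) (by simpa [contract_ground] using hfin') rfl k'
        (by
          intro B hB
          have hB' : B ⊆ M.E \ {e} := by simpa [contract_ground] using hB
          simpa [contract_ground] using hcon B hB')
      rw [heM.contractElem_indep_iff] at hIM
      rw [heN.contractElem_indep_iff] at hIN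
      refine ⟨insert e I, hIM.2, hIN.2, ?_⟩
      rw [encard_insert_of_notMem hIM.1, hIc]
      push_cast
      rfl
    -- both fail: contradiction via submodularity
    exfalso
    push Not at hdel hcon
    obtain ⟨A, hA, hAlt⟩ := hdel
    obtain ⟨B, hB, hBlt⟩ := hcon
    have heA : e ∉ A := fun h => (hA h).2 rfl
    have heB : e ∉ B := fun h => (hB h).2 rfl
    have hBc : (M.E \ {e}) \ B ⊆ N.E \ {e} := by rw [← hE]; exact sdiff_subset
    have e1 := eRk_contractElem_add_one M heM hB
    have e2 := eRk_contractElem_add_one N heN hBc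
    have hins : insert e ((M.E \ {e}) \ B) = M.E \ B := by
      ext x
      simp only [mem_insert_iff, mem_sdiff, mem_singleton_iff]
      constructor
      · rintro (rfl | h)
        · exact ⟨heE, heB⟩
        · exact ⟨h.1.1, h.2⟩
      · rintro ⟨h1, h2⟩
        by_cases hx : x = e
        · exact Or.inl hx
        · exact Or.inr ⟨⟨h1, hx⟩, h2⟩
    rw [hins] at e2
    have s1 := M.eRk_inter_add_eRk_union_le A (insert e B)
    have s2 := N.eRk_inter_add_eRk_union_le ((M.E \ {e}) \ A) (M.E \ B)
    have i1 : A ∩ insert e B = A ∩ B := by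
      ext x
      simp only [mem_inter_iff, mem_insert_iff]
      constructor
      · rintro ⟨hxA, rfl | hxB⟩
        · exact absurd hxA heA
        · exact ⟨hxA, hxB⟩
      · rintro ⟨hxA, hxB⟩
        exact ⟨hxA, Or.inr hxB⟩
    have i2 : A ∪ insert e B = insert e (A ∪ B) := by
      ext x; simp only [mem_union, mem_insert_iff]; tauto
    have i3 : ((M.E \ {e}) \ A) ∩ (M.E \ B) = M.E \ insert e (A ∪ B) := by
      ext x
      simp only [mem_inter_iff, mem_sdiff, mem_singleton_iff, mem_insert_iff, mem_union]
      tauto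
    have i4 : ((M.E \ {e}) \ A) ∪ (M.E \ B) = M.E \ (A ∩ B) := by
      ext x
      simp only [mem_union, mem_sdiff, mem_singleton_iff, mem_inter_iff]
      constructor
      · rintro (h | h)
        · exact ⟨h.1.1, fun hh => h.2 hh.1⟩
        · exact ⟨h.1, fun hh => h.2 hh.2⟩
      · rintro ⟨h1, h2⟩
        by_cases hxB : x ∈ B
        · refine Or.inl ⟨⟨h1, ?_⟩, fun hxA => h2 ⟨hxA, hxB⟩⟩
          rintro rfl
          exact heB hxB
        · exact Or.inr ⟨h1, hxB⟩
    rw [i1, i2] at s1
    rw [i3, i4] at s2
    have k1 := hk (A ∩ B) (inter_subset_left.trans (hA.trans sdiff_subset))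
    have k2 := hk (insert e (A ∪ B))
      (insert_subset heE (union_subset (hA.trans sdiff_subset) (hB.trans sdiff_subset)))
    -- lift everything to natural numbers
    have fA : A.Finite := hfin.subset (hA.trans sdiff_subset)
    have fB : B.Finite := hfin.subset (hB.trans sdiff_subset)
    lift M.eRk A to ℕ using eRk_ne_top_of_finite M fA with a1 ha1
    lift N.eRk ((M.E \ {e}) \ A) to ℕ using
      eRk_ne_top_of_finite N (hfin.subset (sdiff_subset.trans sdiff_subset)) with a2 ha2
    lift M.eRk (insert e B) to ℕ using eRk_ne_top_of_finite M (fB.insert e) with a3 ha3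
    lift N.eRk (M.E \ B) to ℕ using eRk_ne_top_of_finite N (hfin.subset sdiff_subset) with a4 ha4
    lift M.eRk (A ∩ B) to ℕ using eRk_ne_top_of_finite M (fA.subset inter_subset_left) with a5 ha5
    lift N.eRk (M.E \ (A ∩ B)) to ℕ using
      eRk_ne_top_of_finite N (hfin.subset sdiff_subset) with a6 ha6
    lift M.eRk (insert e (A ∪ B)) to ℕ using
      eRk_ne_top_of_finite M ((fA.union fB).insert e) with a7 ha7
    lift N.eRk (M.E \ insert e (A ∪ B)) to ℕ using
      eRk_ne_top_of_finite N (hfin.subset sdiff_subset) with a8 ha8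
    lift (M ／ {e}).eRk B to ℕ using eRk_ne_top_of_finite _ fB with a9 ha9
    lift (N ／ {e}).eRk ((M.E \ {e}) \ B) to ℕ using
      eRk_ne_top_of_finite _ (hfin.subset (sdiff_subset.trans sdiff_subset)) with a10 ha10
    norm_cast at *
    omega

/-- Dichotomy form: either a common independent set of size `k`, or a set `A` whose rank
sum is below `k`. -/
theorem finite_inter_dichotomy (M N : Matroid α) (hE : M.E = N.E) (hfin : M.E.Finite) (k : ℕ) :
    (∃ I, M.Indep I ∧ N.Indep I ∧ I.encard = k) ∨
    (∃ A ⊆ M.E, M.eRk A + N.eRk (M.E \ A) < (k : ℕ∞)) := by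
  by_cases h : ∀ A ⊆ M.E, (k : ℕ∞) ≤ M.eRk A + N.eRk (M.E \ A)
  · exact Or.inl (finite_inter_aux _ M N hE hfin rfl k h)
  · push Not at h
    exact Or.inr h

end Vale.Agent.H18
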