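import Mathlib
import Vale.Agent.H18.FiniteInter

/-!
# The exchange digraph of a common independent set

For matroids `M`, `N` and a common independent set `J` we consider the usual exchange digraph:
an arc `y → x` (`y ∈ J`, `x ∉ J`) when `x` is spanned by `J` in `M` and `J - y + x` is
`M`-independent, and an arc `x → y` when `x` is spanned by `J` in `N` and `J - y + x` is
`N`-independent.  Sinks are the elements `x` with `J + x` independent in `N`, sources the
elements with `J + x` independent in `M`.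

* `tight_of_no_aug`: if no source can reach a sink, then the set `U` of elements that can reach
  a sink gives `cl_M (J ∩ U) ∪ cl_N (J \ U) = E`.  Here `J` may be infinite.
* `exists_better_of_aug`: if some source can reach a sink, there is a common independent set
  `J'` with `rank (M / J) = rank (M / J') + 1`.
-/

namespace Vale.Agent.H18

open Set Matroid

variable {α : Type*}

/-- Arc `v → w` of the exchange digraph of `(M, N)` with respect to `J`. -/
def ExArc (M N : Matroid α) (J : Set α) (v w : α) : Prop :=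
  (v ∈ J ∧ w ∉ J ∧ w ∈ M.closure J ∧ M.Indep (insert w (J \ {v}))) ∨
  (w ∈ J ∧ v ∉ J ∧ v ∈ N.closure J ∧ N.Indep (insert v (J \ {w})))

/-- Elements from which a sink can be reached in at most `t` steps. -/
def Reach (M N : Matroid α) (J : Set α) : ℕ → Set α
  | 0 => N.E \ N.closure J
  | t + 1 => Reach M N J t ∪ {v | ∃ w ∈ Reach M N J t, ExArc M N J v w}

/-- Elements from which a sink can be reached. -/
def ReachAll (M N : Matroid α) (J : Set α) : Set α := ⋃ t, Reach M N J t

theorem mem_reachAll_of_arc {M N : Matroid α} {J : Set α} {v w : α}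
    (h : ExArc M N J v w) (hw : w ∈ ReachAll M N J) : v ∈ ReachAll M N J := by
  obtain ⟨t, ht⟩ := mem_iUnion.1 hw
  exact mem_iUnion.2 ⟨t + 1, Or.inr ⟨w, ht, h⟩⟩

/-- If no source reaches a sink, the reachability set gives a tight partition of `J`. -/
theorem tight_of_no_aug (M N : Matroid α) (hE : M.E = N.E) {J : Set α}
    (hJM : M.Indep J) (hJN : N.Indep J)
    (h : ∀ x ∈ ReachAll M N J, x ∈ M.E → x ∈ M.closure J) :
    M.closure (J ∩ ReachAll M N J) ∪ N.closure (J \ ReachAll M N J) = M.E := by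
  apply subset_antisymm
  · refine union_subset (M.closure_subset_ground _) ?_
    rw [hE]
    exact N.closure_subset_ground _
  intro x hxE
  by_cases hxU : x ∈ ReachAll M N J
  · left
    by_cases hxJ : x ∈ J
    · exact M.mem_closure_of_mem' ⟨hxJ, hxU⟩ hxE
    have hcl : x ∈ M.closure J := h x hxU hxE
    have hC := hJM.fundCircuit_isCircuit hcl hxJ
    have hx1 := hC.mem_closure_sdiff_singleton_of_mem (M.mem_fundCircuit x J)
    refine M.closure_subset_closure ?_ hx1
    rintro y ⟨hyC, hyx⟩
    have hyx' : y ≠ x := hyx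
    have hyJ : y ∈ J := by
      rcases M.fundCircuit_subset_insert x J hyC with h1 | h1
      · exact absurd h1 hyx'
      · exact h1
    have hind := (hJM.mem_fundCircuit_iff hcl hxJ).1 hyC
    rw [← insert_sdiff_singleton_comm hyx'.symm] at hind
    exact ⟨hyJ, mem_reachAll_of_arc (Or.inl ⟨hyJ, hxJ, hcl, hind⟩) hxU⟩
  · right
    have hxN : x ∈ N.E := hE ▸ hxE
    by_cases hxJ : x ∈ J
    · exact N.mem_closure_of_mem' ⟨hxJ, hxU⟩ hxN
    have hcl : x ∈ N.closure J := by
      by_contra hcon
      exact hxU (mem_iUnion.2 ⟨0, ⟨hxN, hcon⟩⟩)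
    have hC := hJN.fundCircuit_isCircuit hcl hxJ
    have hx1 := hC.mem_closure_sdiff_singleton_of_mem (N.mem_fundCircuit x J)
    refine N.closure_subset_closure ?_ hx1
    rintro y ⟨hyC, hyx⟩
    have hyx' : y ≠ x := hyx
    have hyJ : y ∈ J := by
      rcases N.fundCircuit_subset_insert x J hyC with h1 | h1
      · exact absurd h1 hyx'
      · exact h1
    have hind := (hJN.mem_fundCircuit_iff hcl hxJ).1 hyC
    rw [← insert_sdiff_singleton_comm hyx'.symm] at hind
    refine ⟨hyJ, fun hyU => hxU ?_⟩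
    exact mem_reachAll_of_arc (Or.inr ⟨hyJ, hxJ, hcl, hind⟩) hyU

/-- Reachability of a sink is witnessed inside a finite set. -/
theorem reach_finite_support (M N : Matroid α) {J : Set α} (hJN : N.Indep J) (t : ℕ) :
    ∀ v ∈ Reach M N J t, ∃ F : Set α, F.Finite ∧ F ⊆ N.E ∧ v ∈ F ∧
      ∀ A : Set α, (∀ w ∈ F, w ∈ N.E \ N.closure J → w ∈ A) →
        (∀ v' ∈ F, ∀ w' ∈ F, ExArc M N J v' w' → w' ∈ A → v' ∈ A) → v ∈ A := by
  induction t with
  | zero =>
    intro v hv
    refine ⟨{v}, finite_singleton v, ?_, rfl, ?_⟩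
    · rintro _ rfl
      exact hv.1
    · intro A hA _
      exact hA v rfl hv
  | succ t ih =>
    intro v hv
    rcases hv with hv | ⟨w, hw, harc⟩
    · exact ih v hv
    obtain ⟨F, hFfin, hFE, hwF, hF⟩ := ih w hw
    have hvE : v ∈ N.E := by
      rcases harc with h | h
      · exact hJN.subset_ground h.1
      · exact N.closure_subset_ground J h.2.2.1
    refine ⟨insert v F, hFfin.insert v, insert_subset hvE hFE, mem_insert v F, ?_⟩
    intro A hA1 hA2
    have hwA : w ∈ A := hF A (fun w' hw' => hA1 w' (mem_insert_of_mem v hw'))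
      (fun v' hv' w' hw' => hA2 v' (mem_insert_of_mem v hv') w' (mem_insert_of_mem v hw'))
    exact hA2 v (mem_insert v F) w (mem_insert_of_mem v hwF) harc hwA

/-- Rank of a contraction by an independent set. -/
theorem eRank_contract_add_encard (M : Matroid α) {I : Set α} (hI : M.Indep I) :
    (M ／ I).eRank + I.encard = M.eRank := by
  obtain ⟨B, hB⟩ := (M ／ I).exists_isBase
  have hB' := hI.contract_isBase_iff.1 hB
  rw [← hB.encard_eq_eRank, ← hB'.1.encard_eq_eRank, encard_union_eq hB'.2]

/-- Independence in the finite minor `(M ／ (J \ F)) ↾ F`. -/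
theorem minor_indep_iff (M : Matroid α) {Jo F : Set α} (hJo : M.Indep Jo)
    (hdj : Disjoint F Jo) (I : Set α) :
    ((M ／ Jo) ↾ F).Indep I ↔ I ⊆ F ∧ M.Indep (I ∪ Jo) := by
  rw [restrict_indep_iff, hJo.contract_indep_iff]
  constructor
  · rintro ⟨⟨_, h2⟩, h3⟩
    exact ⟨h3, h2⟩
  · rintro ⟨h1, h2⟩
    exact ⟨⟨disjoint_of_subset_left h1 hdj, h2⟩, h1⟩

/-- Closure in the finite minor `(M ／ (J \ F)) ↾ F` is contained in the closure in `M`. -/
theorem minor_closure_subset (M : Matroid α) {Jo F : Set α} (hFE : F ⊆ M.E)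
    (hdj : Disjoint F Jo) (X : Set α) :
    ((M ／ Jo) ↾ F).closure X ⊆ M.closure (X ∪ Jo) := by
  rw [restrict_closure_eq']
  have h0 : F \ (M ／ Jo).E = ∅ := by
    rw [contract_ground, sdiff_eq_empty]
    exact subset_sdiff.2 ⟨hFE, hdj⟩
  rw [h0, union_empty, contract_closure_eq]
  intro y hy
  exact M.closure_subset_closure (union_subset_union_left _ inter_subset_left) hy.1.1

/-- If a source can reach a sink, there is a common independent set of smaller corank. -/
theorem exists_better_of_aug (M N : Matroid α) (hE : M.E = N.E) {J : Set α}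
    (hJM : M.Indep J) (hJN : N.Indep J) {x : α} (hx : x ∈ ReachAll M N J)
    (hxs : x ∉ M.closure J) :
    ∃ J', M.Indep J' ∧ N.Indep J' ∧ (M ／ J).eRank = (M ／ J').eRank + 1 := by
  obtain ⟨t, ht⟩ := mem_iUnion.1 hx
  obtain ⟨F, hFfin, hFE, hxF, hF⟩ := reach_finite_support M N hJN t x ht
  have hFEM : F ⊆ M.E := hE ▸ hFE
  have hJoM : M.Indep (J \ F) := hJM.subset sdiff_subset
  have hJoN : N.Indep (J \ F) := hJN.subset sdiff_subset
  have hJFfin : (J ∩ F).Finite := hFfin.subset inter_subset_right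
  have hsplit : J ∩ F ∪ J \ F = J := inter_union_sdiff J F
  have hdj : Disjoint F (J \ F) := disjoint_sdiff_right
  have hgr : ((M ／ (J \ F)) ↾ F).E = ((N ／ (J \ F)) ↾ F).E := rfl
  have hsub1 : ∀ A : Set α, J ∩ F ∩ A ∪ J \ F ⊆ J := fun A =>
    union_subset (inter_subset_left.trans inter_subset_left) sdiff_subset
  have hsub2 : ∀ A : Set α, (J ∩ F) \ A ∪ J \ F ⊆ J := fun A =>
    union_subset (sdiff_subset.trans inter_subset_left) sdiff_subset
  rcases finite_inter_dichotomy ((M ／ (J \ F)) ↾ F) ((N ／ (J \ F)) ↾ F) hgr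
    (by simpa using hFfin) ((J ∩ F).ncard + 1) with ⟨I, hIM, hIN, hIc⟩ | ⟨A, hAF, hlt⟩
  · rw [minor_indep_iff M hJoM hdj] at hIM
    rw [minor_indep_iff N hJoN hdj] at hIN
    refine ⟨I ∪ J \ F, hIM.2, hIN.2, ?_⟩
    have hJFi : (M ／ (J \ F)).Indep (J ∩ F) := by
      rw [hJoM.contract_indep_iff, hsplit]
      exact ⟨disjoint_of_subset_left inter_subset_right hdj, hJM⟩
    have hIi : (M ／ (J \ F)).Indep I := by
      rw [hJoM.contract_indep_iff]
      exact ⟨disjoint_of_subset_left hIM.1 hdj, hIM.2⟩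
    have r1 := eRank_contract_add_encard _ hJFi
    have r2 := eRank_contract_add_encard _ hIi
    rw [contract_contract, union_comm, hsplit] at r1
    rw [contract_contract, union_comm] at r2
    rw [← hJFfin.cast_ncard_eq] at r1
    rw [hIc, ← r1] at r2
    have h3 : (M ／ (I ∪ J \ F)).eRank + 1 + ((J ∩ F).ncard : ℕ∞) =
        (M ／ J).eRank + ((J ∩ F).ncard : ℕ∞) := by
      rw [← r2]
      push_cast
      ring
    exact (WithTop.add_right_cancel (ENat.natCast_ne_top _) h3).symm
  · exfalso
    have hAF' : A ⊆ F := hAF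
    rw [restrict_ground_eq] at hlt
    have iM : ((M ／ (J \ F)) ↾ F).Indep (J ∩ F ∩ A) :=
      (minor_indep_iff M hJoM hdj _).2
        ⟨inter_subset_left.trans inter_subset_right, hJM.subset (hsub1 A)⟩
    have iN : ((N ／ (J \ F)) ↾ F).Indep ((J ∩ F) \ A) :=
      (minor_indep_iff N hJoN hdj _).2
        ⟨sdiff_subset.trans inter_subset_right, hJN.subset (hsub2 A)⟩
    have c1 := iM.encard_le_eRk_of_subset (X := A) inter_subset_right
    have c2 := iN.encard_le_eRk_of_subset (X := F \ A)
      (sdiff_subset_sdiff_left inter_subset_right)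
    have c3 := encard_sdiff_add_encard_inter (J ∩ F) A
    rw [← hJFfin.cast_ncard_eq] at c3
    have f1 : (J ∩ F ∩ A).Finite := hJFfin.subset inter_subset_left
    have f2 : ((J ∩ F) \ A).Finite := hJFfin.subset sdiff_subset
    have g1 : ((M ／ (J \ F)) ↾ F).eRk A ≤ (J ∩ F ∩ A).encard ∧
        ((N ／ (J \ F)) ↾ F).eRk (F \ A) ≤ ((J ∩ F) \ A).encard := by
      lift ((M ／ (J \ F)) ↾ F).eRk A to ℕ using
        eRk_ne_top_of_finite _ (hFfin.subset hAF') with a ha
      lift ((N ／ (J \ F)) ↾ F).eRk (F \ A) to ℕ using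
        eRk_ne_top_of_finite _ (hFfin.subset sdiff_subset) with b hb
      lift (J ∩ F ∩ A).encard to ℕ using encard_ne_top_iff.mpr f1 with c hc
      lift ((J ∩ F) \ A).encard to ℕ using encard_ne_top_iff.mpr f2 with d hd
      norm_cast at *
      omega
    have hbM : ((M ／ (J \ F)) ↾ F).IsBasis (J ∩ F ∩ A) A :=
      iM.isBasis_of_eRk_ge f1 inter_subset_right (by rw [iM.eRk_eq_encard]; exact g1.1)
    have hbN : ((N ／ (J \ F)) ↾ F).IsBasis ((J ∩ F) \ A) (F \ A) :=
      iN.isBasis_of_eRk_ge f2 (sdiff_subset_sdiff_left inter_subset_right)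
        (by rw [iN.eRk_eq_encard]; exact g1.2)
    have hAcl : A ⊆ M.closure (J ∩ F ∩ A ∪ J \ F) :=
      hbM.subset_closure.trans (minor_closure_subset M hFEM hdj _)
    have hBcl : F \ A ⊆ N.closure ((J ∩ F) \ A ∪ J \ F) :=
      hbN.subset_closure.trans (minor_closure_subset N hFE hdj _)
    have hxA : x ∈ A := by
      apply hF A
      · intro w hwF hw
        by_contra hwA
        exact hw.2 (N.closure_subset_closure (hsub2 A) (hBcl ⟨hwF, hwA⟩))
      · intro v' hv'F w' hw'F harc hw'A
        by_contra hv'A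
        rcases harc with ⟨hv'J, hw'J, hw'cl, hind⟩ | ⟨hw'J, hv'J, hv'cl, hind⟩
        · have h1 : w' ∈ M.closure (J \ {v'}) := by
            refine M.closure_subset_closure ?_ (hAcl hw'A)
            rintro y (hy | hy)
            · exact ⟨hy.1.1, fun h => hv'A (h ▸ hy.2)⟩
            · exact ⟨hy.1, fun h => hy.2 (h ▸ hv'F)⟩
          have h2 : w' ∉ J \ {v'} := fun h => hw'J h.1
          exact ((hJM.subset sdiff_subset).notMem_closure_iff_of_notMem h2
            (M.closure_subset_ground _ hw'cl)).2 hind h1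
        · have h1 : v' ∈ N.closure (J \ {w'}) := by
            refine N.closure_subset_closure ?_ (hBcl ⟨hv'F, hv'A⟩)
            rintro y (hy | hy)
            · exact ⟨hy.1.1, fun h => hy.2 (h ▸ hw'A)⟩
            · exact ⟨hy.1, fun h => hy.2 (h ▸ hw'F)⟩
          have h2 : v' ∉ J \ {w'} := fun h => hv'J h.1
          exact ((hJN.subset sdiff_subset).notMem_closure_iff_of_notMem h2
            (N.closure_subset_ground _ hv'cl)).2 hind h1
    exact hxs (M.closure_subset_closure (hsub1 A) (hAcl hxA))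

end Vale.Agent.H18
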