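import Mathlib
import Vale.Agent.H18.Exchange

/-!
# The matroid intersection property for pairs with an almost spanning common independent set

`SatInter M N` is the intersection property of the infinite matroid intersection conjecture:
a common independent set `J = JM ⊔ JN` with `cl_M JM ∪ cl_N JN = E`.

Main results:
* `satInter_of_rankFinite_contract`: if some common independent set `J` has `M ／ J` of finite
  rank, then `(M, N)` satisfies intersection.
* `SatInter.symm`, `satInter_of_dual`: the property is symmetric, and it passes from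
  `(N✶, M✶)` to `(M, N)`.
-/

namespace Vale.Agent.H18

open Set Matroid

variable {α : Type*}

/-- The pair `(M, N)` satisfies intersection. -/
def SatInter (M N : Matroid α) : Prop :=
  ∃ J JM JN : Set α, M.Indep J ∧ N.Indep J ∧ JM ∪ JN = J ∧ Disjoint JM JN ∧
    M.closure JM ∪ N.closure JN = M.E

theorem satInter_of_eRank (M N : Matroid α) (hE : M.E = N.E) (n : ℕ) :
    ∀ J, M.Indep J → N.Indep J → (M ／ J).eRank = n → SatInter M N := by
  induction n with
  | zero =>
    intro J hJM hJN hn
    by_cases h : ∀ x ∈ ReachAll M N J, x ∈ M.E → x ∈ M.closure J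
    · exact ⟨J, J ∩ ReachAll M N J, J \ ReachAll M N J, hJM, hJN, inter_union_sdiff _ _,
        disjoint_sdiff_right.mono_left inter_subset_right, tight_of_no_aug M N hE hJM hJN h⟩
    · push Not at h
      obtain ⟨x, hxU, -, hxs⟩ := h
      obtain ⟨J', -, -, hr⟩ := exists_better_of_aug M N hE hJM hJN hxU hxs
      rw [hn] at hr
      exact absurd (add_eq_zero.1 hr.symm).2 one_ne_zero
  | succ m ih =>
    intro J hJM hJN hn
    by_cases h : ∀ x ∈ ReachAll M N J, x ∈ M.E → x ∈ M.closure J
    · exact ⟨J, J ∩ ReachAll M N J, J \ ReachAll M N J, hJM, hJN, inter_union_sdiff _ _,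
        disjoint_sdiff_right.mono_left inter_subset_right, tight_of_no_aug M N hE hJM hJN h⟩
    · push Not at h
      obtain ⟨x, hxU, -, hxs⟩ := h
      obtain ⟨J', hJ'M, hJ'N, hr⟩ := exists_better_of_aug M N hE hJM hJN hxU hxs
      rw [hn] at hr
      refine ih J' hJ'M hJ'N ?_
      have h1 : (M ／ J').eRank + 1 = (m : ℕ∞) + 1 := by
        rw [← hr]
        push_cast
        rfl
      exact ENat.add_left_injective_of_ne_top ENat.one_ne_top h1

/-- If some common independent set `J` is such that `M ／ J` has finite rank, then `(M, N)`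
satisfies intersection. -/
theorem satInter_of_rankFinite_contract (M N : Matroid α) (hE : M.E = N.E) {J : Set α}
    (hJM : M.Indep J) (hJN : N.Indep J) (hfin : (M ／ J).RankFinite) : SatInter M N := by
  have hne : (M ／ J).eRank ≠ ⊤ := (eRank_ne_top_iff _).2 hfin
  lift (M ／ J).eRank to ℕ using hne with n hn
  exact satInter_of_eRank M N hE n J hJM hJN hn.symm

theorem SatInter.symm {M N : Matroid α} (hE : M.E = N.E) (h : SatInter M N) : SatInter N M := by
  obtain ⟨J, JM, JN, hJM, hJN, hJ, hdj, hcl⟩ := h
  exact ⟨J, JN, JM, hJN, hJM, by rw [union_comm, hJ], hdj.symm, by rw [union_comm, hcl, hE]⟩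

/-- Key step of duality: if `J2` is a basis of `B` in `M✶` and `D` is a base of `M✶` with
`D ∩ B = J2`, then `(E \ D) \ B` is a basis of `E \ B` in `M`. -/
theorem dual_basis_compl (M : Matroid α) {D B : Set α} (hD : M✶.IsBase D)
    (hDB : M✶.IsBasis (D ∩ B) B) : M.IsBasis ((M.E \ D) ∩ (M.E \ B)) (M.E \ B) := by
  have := hD.compl_inter_isBasis_of_inter_isBasis hDB
  rwa [dual_dual, dual_ground] at this

/-- The intersection property passes from `(N✶, M✶)` to `(M, N)`. -/
theorem satInter_of_dual {M N : Matroid α} (hE : M.E = N.E) (h : SatInter N✶ M✶) :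
    SatInter M N := by
  obtain ⟨J, J1, J2, hJN, hJM, rfl, hdj, hcl⟩ := h
  rw [dual_ground] at hcl
  have hJ1 : N✶.Indep J1 := hJN.subset subset_union_left
  have hJ2 : M✶.Indep J2 := hJM.subset subset_union_right
  -- A := N✶.closure J1, B := M.E \ A
  have hJ1A : J1 ⊆ N✶.closure J1 := N✶.subset_closure J1 hJ1.subset_ground
  have hAE : N✶.closure J1 ⊆ M.E := by
    rw [hE]
    exact N✶.closure_subset_ground J1
  -- elements of an independent superset of J1 inside the closure of J1 lie in J1
  have key1 : ∀ D, N✶.Indep D → J1 ⊆ D → D ∩ N✶.closure J1 = J1 := by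
    intro D hD hJD
    apply subset_antisymm
    · rintro y ⟨hyD, hyA⟩
      by_contra hy
      exact (hJ1.notMem_closure_iff_of_notMem hy (hD.subset_ground hyD)).2
        (hD.subset (insert_subset hyD hJD)) hyA
    · exact subset_inter hJD hJ1A
  have hJ2B : J2 ⊆ M.E \ N✶.closure J1 := by
    intro y hy
    refine ⟨hJ2.subset_ground hy, fun hyA => ?_⟩
    have := key1 _ hJN subset_union_left
    have hy1 : y ∈ J1 := by
      rw [← this]
      exact ⟨Or.inr hy, hyA⟩
    exact hdj.le_bot ⟨hy1, hy⟩
  have hBcl : M.E \ N✶.closure J1 ⊆ M✶.closure J2 := by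
    rintro y ⟨hyE, hyA⟩
    have : y ∈ N✶.closure J1 ∪ M✶.closure J2 := by
      rw [hcl, ← hE]
      exact hyE
    exact this.resolve_left hyA
  have key2 : ∀ D, M✶.Indep D → J2 ⊆ D → D ∩ (M.E \ N✶.closure J1) = J2 := by
    intro D hD hJD
    apply subset_antisymm
    · rintro y ⟨hyD, hyB⟩
      by_contra hy
      exact (hJ2.notMem_closure_iff_of_notMem hy (hD.subset_ground hyD)).2
        (hD.subset (insert_subset hyD hJD)) (hBcl hyB)
    · exact subset_inter hJD hJ2B
  obtain ⟨D1, hD1, hJD1⟩ := hJM.exists_isBase_superset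
  obtain ⟨D2, hD2, hJD2⟩ := hJN.exists_isBase_superset
  have e1 := key2 D1 hD1.indep (subset_union_right.trans hJD1)
  have e2 := key1 D2 hD2.indep (subset_union_left.trans hJD2)
  have b1 : M✶.IsBasis (D1 ∩ (M.E \ N✶.closure J1)) (M.E \ N✶.closure J1) := by
    rw [e1]
    exact hJ2.isBasis_of_subset_of_subset_closure hJ2B hBcl
  have b2 : N✶.IsBasis (D2 ∩ N✶.closure J1) (N✶.closure J1) := by
    rw [e2]
    exact hJ1.isBasis_closure
  have c1 := dual_basis_compl M hD1 b1
  have c2 := dual_basis_compl N hD2 b2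
  rw [sdiff_sdiff_cancel_left hAE] at c1
  rw [← hE] at c2
  -- KM := (M.E \ D1) ∩ A is a basis of A in M; KN := (M.E \ D2) ∩ B is a basis of B in N
  have hKM : (M.E \ D1) ∩ N✶.closure J1 ⊆ M.E \ D2 := by
    rintro y ⟨hy1, hyA⟩
    refine ⟨hy1.1, fun hyD2 => hy1.2 ?_⟩
    have : y ∈ J1 := by
      rw [← e2]
      exact ⟨hyD2, hyA⟩
    exact hJD1 (Or.inl this)
  have hKN : (M.E \ D2) ∩ (M.E \ N✶.closure J1) ⊆ M.E \ D1 := by
    rintro y ⟨hy2, hyB⟩
    refine ⟨hy2.1, fun hyD1 => hy2.2 ?_⟩
    have : y ∈ J2 := by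
      rw [← e1]
      exact ⟨hyD1, hyB⟩
    exact hJD2 (Or.inr this)
  have hMbase : M.IsBase (M.E \ D1) := hD1.compl_isBase_of_dual
  have hNbase : N.IsBase (M.E \ D2) := by
    rw [hE]
    exact hD2.compl_isBase_of_dual
  refine ⟨_, (M.E \ D1) ∩ N✶.closure J1, (M.E \ D2) ∩ (M.E \ N✶.closure J1), ?_, ?_, rfl, ?_, ?_⟩
  · exact hMbase.indep.subset (union_subset inter_subset_left hKN)
  · exact hNbase.indep.subset (union_subset hKM inter_subset_left)
  · exact disjoint_sdiff_right.mono inter_subset_right inter_subset_right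
  · apply subset_antisymm
    · refine union_subset (M.closure_subset_ground _) ?_
      rw [hE]
      exact N.closure_subset_ground _
    · intro y hy
      by_cases hyA : y ∈ N✶.closure J1
      · exact Or.inl (c1.subset_closure hyA)
      · exact Or.inr (c2.subset_closure ⟨hy, hyA⟩)

/-- If `J ∪ K` is spanning with `K` finite, then `M ／ J` has finite rank. -/
theorem rankFinite_contract_of_spanning_union (M : Matroid α) {J K : Set α}
    (hK : K.Finite) (h : M.Spanning (J ∪ K)) : (M ／ J).RankFinite := by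
  have h1 : (M ／ J).Spanning ((J ∪ K) \ J) := h.contract J
  obtain ⟨B, hB, hBs⟩ := h1.exists_isBase_subset
  refine hB.rankFinite_of_finite (hK.subset (hBs.trans ?_))
  rintro y ⟨hy | hy, hyJ⟩
  · exact absurd hy hyJ
  · exact hy

/-- First half of the main theorem: a common independent set that is finitely many elements
short of spanning in one of the two matroids. -/
theorem satInter_of_almost_spanning (M N : Matroid α) (hE : M.E = N.E) {J K : Set α}
    (hJM : M.Indep J) (hJN : N.Indep J) (hK : K.Finite)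
    (h : M.Spanning (J ∪ K) ∨ N.Spanning (J ∪ K)) : SatInter M N := by
  rcases h with h | h
  · exact satInter_of_rankFinite_contract M N hE hJM hJN
      (rankFinite_contract_of_spanning_union M hK h)
  · exact (satInter_of_rankFinite_contract N M hE.symm hJN hJM
      (rankFinite_contract_of_spanning_union N hK h)).symm hE.symm

/-- If `S` is spanning and `S \ K` is independent with `K` finite, then in the dual the
complement of `S` is independent and finitely many elements short of spanning. -/
theorem dual_almost_spanning (M : Matroid α) {S K : Set α} (hS : M.Spanning S)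
    (hi : M.Indep (S \ K)) :
    M✶.Indep (M.E \ S) ∧ M✶.Spanning ((M.E \ S) ∪ (K ∩ M.E)) := by
  refine ⟨hS.compl_coindep, ?_⟩
  have h1 : M✶.Coindep (S \ K) := dual_coindep_iff.2 hi
  have h2 := h1.compl_spanning
  rw [dual_ground] at h2
  have h3 : M.E \ (S \ K) = (M.E \ S) ∪ (K ∩ M.E) := by
    ext y
    simp only [mem_sdiff, mem_union, mem_inter_iff]
    tauto
  rwa [h3] at h2

/-- Main theorem (bundled form). -/
theorem satInter_main (M N : Matroid α) (hE : M.E = N.E)
    (h : (∃ J K : Set α, M.Indep J ∧ N.Indep J ∧ K.Finite ∧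
            (M.Spanning (J ∪ K) ∨ N.Spanning (J ∪ K))) ∨
         (∃ S K : Set α, M.Spanning S ∧ N.Spanning S ∧ K.Finite ∧
            (M.Indep (S \ K) ∨ N.Indep (S \ K)))) :
    SatInter M N := by
  rcases h with ⟨J, K, hJM, hJN, hK, h⟩ | ⟨S, K, hSM, hSN, hK, h⟩
  · exact satInter_of_almost_spanning M N hE hJM hJN hK h
  · apply satInter_of_dual hE
    have hE' : N✶.E = M✶.E := by simp [hE]
    have hKM : (K ∩ M.E).Finite := hK.subset inter_subset_left
    rcases h with h | h
    · obtain ⟨i1, s1⟩ := dual_almost_spanning M hSM h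
      have i2 : N✶.Indep (M.E \ S) := by
        rw [hE]
        exact hSN.compl_coindep
      exact satInter_of_almost_spanning N✶ M✶ hE' i2 i1 hKM (Or.inr s1)
    · obtain ⟨i1, s1⟩ := dual_almost_spanning N hSN h
      rw [← hE] at i1 s1
      have i2 : M✶.Indep (M.E \ S) := hSM.compl_coindep
      exact satInter_of_almost_spanning N✶ M✶ hE' i1 i2 hKM (Or.inl s1)

/-- Special case: one of the four matroids `M`, `N`, `M✶`, `N✶` has finite rank. -/
theorem satInter_of_rankFinite (M N : Matroid α) (hE : M.E = N.E)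
    (h : M.RankFinite ∨ N.RankFinite ∨ M✶.RankFinite ∨ N✶.RankFinite) : SatInter M N := by
  apply satInter_main M N hE
  rcases h with h | h | h | h
  · obtain ⟨B, hB⟩ := M.exists_isBase
    exact Or.inl ⟨∅, B, M.empty_indep, N.empty_indep, hB.finite,
      Or.inl (by rw [empty_union]; exact hB.spanning)⟩
  · obtain ⟨B, hB⟩ := N.exists_isBase
    exact Or.inl ⟨∅, B, M.empty_indep, N.empty_indep, hB.finite,
      Or.inr (by rw [empty_union]; exact hB.spanning)⟩
  · obtain ⟨B, hB⟩ := M✶.exists_isBase
    exact Or.inr ⟨M.E, B, M.ground_spanning, hE ▸ N.ground_spanning, hB.finite,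
      Or.inl hB.compl_isBase_of_dual.indep⟩
  · obtain ⟨B, hB⟩ := N✶.exists_isBase
    exact Or.inr ⟨M.E, B, M.ground_spanning, hE ▸ N.ground_spanning, hB.finite,
      Or.inr (hE ▸ hB.compl_isBase_of_dual.indep)⟩

end Vale.Agent.H18
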