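import Mathlib
import Vale.Agent.H57.MatroidSum

/-!
# Packing/covering partitions for finite families of matroids of finite rank or corank

For a family `M i` (`i : Θ`) of matroids on a common ground set `E`, we consider on `Θ × α`
the direct sum of the copies `M i` on `{i} × E` and the partition matroid whose independent
sets contain at most one copy of each element of `E`.  A solution of the intersection problem
for this pair translates into a packing/covering partition of the family
(Bowler-Carmesin).  Combined with `Vale.Agent.H57.intersection_disjointSigma` this gives a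
packing/covering partition for every finite family of matroids each of which has finite rank
or finite corank.
-/

namespace Vale.Agent.H18

open Set Matroid

variable {α Θ : Type*}

/-- Independence in the direct sum of the copies is fibrewise independence. -/
theorem copies_indep_iff (M : Θ → Matroid α)
    (hdj : Pairwise (Function.onFun Disjoint fun i =>
      ((M i).map (Prod.mk i) (Prod.mk_right_injective i).injOn).E)) (X : Set (Θ × α)) :
    (Matroid.disjointSigma (fun i => (M i).map (Prod.mk i) (Prod.mk_right_injective i).injOn)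
      hdj).Indep X ↔ ∀ i, (M i).Indep (Prod.mk i ⁻¹' X) := by
  rw [Matroid.disjointSigma_indep_iff]
  constructor
  · rintro ⟨h1, h2⟩ i
    obtain ⟨I₀, hI₀, hX⟩ := map_indep_iff.1 (h1 i)
    refine hI₀.subset ?_
    intro e he
    have he' : (i, e) ∈ X := he
    obtain ⟨j, hj⟩ := mem_iUnion.1 (h2 he')
    rw [map_ground] at hj
    obtain ⟨e', he'E, heq⟩ := hj
    have hij : j = i := congrArg Prod.fst heq
    have hee : e' = e := congrArg Prod.snd heq
    subst hij
    subst hee
    have hmem : (j, e') ∈ X ∩ ((M j).map (Prod.mk j) (Prod.mk_right_injective j).injOn).E :=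
      ⟨he', by rw [map_ground]; exact ⟨e', he'E, rfl⟩⟩
    rw [hX] at hmem
    obtain ⟨e'', he''I, heq'⟩ := hmem
    have : e'' = e' := congrArg Prod.snd heq'
    rw [← this]
    exact he''I
  · intro h
    refine ⟨fun i => ?_, ?_⟩
    · rw [map_indep_iff]
      refine ⟨Prod.mk i ⁻¹' X, h i, ?_⟩
      ext ⟨j, e⟩
      simp only [mem_inter_iff, map_ground, mem_image, mem_preimage, Prod.mk.injEq]
      constructor
      · rintro ⟨hX, e', -, rfl, rfl⟩
        exact ⟨e', hX, rfl, rfl⟩
      · rintro ⟨e', hX, rfl, rfl⟩
        exact ⟨hX, e', (h i).subset_ground hX, rfl, rfl⟩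
    · rintro ⟨i, e⟩ hX
      refine mem_iUnion.2 ⟨i, ?_⟩
      rw [map_ground]
      exact ⟨e, (h i).subset_ground hX, rfl⟩

/-- Every finite family of matroids on a common ground set, each of finite rank or of finite
corank, has a packing/covering partition. -/
theorem packingCovering_of_finite_family [Finite Θ] (M : Θ → Matroid α) (E : Set α)
    (hE : ∀ i, (M i).E = E) (hfin : ∀ i, (M i).RankFinite ∨ (M i)✶.RankFinite) :
    ∃ (P C : Set α) (S I : Θ → Set α), P ∪ C = E ∧ Disjoint P C ∧
      (∀ i, S i ⊆ P) ∧ (∀ i j, i ≠ j → Disjoint (S i) (S j)) ∧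
      (∀ i, ((M i) ↾ P).closure (S i) = P) ∧
      (∀ i, I i ⊆ C) ∧ (∀ i, (((M i)✶ ↾ C)✶).Indep (I i)) ∧ (⋃ i, I i) = C := by
  have hdj : Pairwise (Function.onFun Disjoint fun i =>
      ((M i).map (Prod.mk i) (Prod.mk_right_injective i).injOn).E) := by
    intro i j hij
    simp only [Function.onFun, map_ground]
    rw [Set.disjoint_left]
    rintro _ ⟨e, -, rfl⟩ ⟨e', -, heq⟩
    exact hij (congrArg Prod.fst heq).symm
  have hPE : ((freeOn E).comap (Prod.snd : Θ × α → α)).E =
      ⋃ i, ((M i).map (Prod.mk i) (Prod.mk_right_injective i).injOn).E := by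
    ext ⟨i, e⟩
    simp only [comap_ground_eq, freeOn_ground, mem_preimage, map_ground, mem_iUnion, mem_image,
      Prod.mk.injEq, hE]
    constructor
    · intro he
      exact ⟨i, e, he, rfl, rfl⟩
    · rintro ⟨j, e', he', -, rfl⟩
      exact he'
  have hfin' : ∀ i, ((M i).map (Prod.mk i) (Prod.mk_right_injective i).injOn).RankFinite ∨
      ((M i).map (Prod.mk i) (Prod.mk_right_injective i).injOn).dual.RankFinite := by
    intro i
    rcases hfin i with h | h
    · left
      infer_instance
    · right
      have h2 : ((M i)✶.map (Prod.mk i) (Prod.mk_right_injective i).injOn).RankFinite :=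
        inferInstance
      rw [map_dual]
      exact h2
  obtain ⟨J, JP, JM, hJP, hJM, hJ, hdjJ, hcl⟩ :=
    Vale.Agent.H57.intersection_disjointSigma _ _ hdj hPE hfin'
  rw [copies_indep_iff M hdj] at hJM
  have hPind : ∀ X : Set (Θ × α), ((freeOn E).comap (Prod.snd : Θ × α → α)).Indep X ↔
      Prod.snd '' X ⊆ E ∧ InjOn Prod.snd X := by
    intro X
    rw [comap_indep_iff, freeOn_indep_iff]
  have hJinj : InjOn (Prod.snd : Θ × α → α) J := ((hPind J).1 hJP).2
  have hJPsub : JP ⊆ J := hJ ▸ subset_union_left
  have hJMsub : JM ⊆ J := hJ ▸ subset_union_right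
  have hJPind := hJP.subset hJPsub
  have hJMind : ∀ i, (M i).Indep (Prod.mk i ⁻¹' JM) := fun i =>
    (hJM i).subset (preimage_mono hJMsub)
  have hCE : Prod.snd '' JP ⊆ E := ((hPind JP).1 hJPind).1
  -- elements of `E` outside `C` are spanned by `S i` in `M i`
  have hspan : ∀ i, E \ Prod.snd '' JP ⊆ (M i).closure (Prod.mk i ⁻¹' JM) := by
    rintro i e ⟨heE, heC⟩
    rw [(hJMind i).mem_closure_iff', hE]
    refine ⟨heE, fun hins => ?_⟩
    have hmemE : (i, e) ∈ ((freeOn E).comap (Prod.snd : Θ × α → α)).E := by
      simp [heE]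
    rw [← hcl] at hmemE
    rcases hmemE with h | h
    · exfalso
      have h2 := (hJPind.mem_closure_iff'.1 h).2
      have hnot : (i, e) ∉ JP := fun hmem => heC ⟨(i, e), hmem, rfl⟩
      have hind : ((freeOn E).comap (Prod.snd : Θ × α → α)).Indep (insert (i, e) JP) := by
        rw [hPind]
        constructor
        · rw [image_insert_eq]
          exact insert_subset heE hCE
        · rw [injOn_insert hnot]
          exact ⟨((hPind JP).1 hJPind).2, heC⟩
      exact hnot (h2 hind)
    · have hJMd : (Matroid.disjointSigma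
          (fun i => (M i).map (Prod.mk i) (Prod.mk_right_injective i).injOn) hdj).Indep JM := by
        rw [copies_indep_iff M hdj]
        exact hJMind
      have h2 := (hJMd.mem_closure_iff'.1 h).2
      apply h2
      rw [copies_indep_iff M hdj]
      intro j
      by_cases hji : j = i
      · subst hji
        have : Prod.mk j ⁻¹' insert (j, e) JM = insert e (Prod.mk j ⁻¹' JM) := by
          ext e'
          simp only [mem_preimage, mem_insert_iff, Prod.mk.injEq, true_and]
        rw [this]
        exact hins
      · have : Prod.mk j ⁻¹' insert (i, e) JM = Prod.mk j ⁻¹' JM := by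
          ext e'
          simp only [mem_preimage, mem_insert_iff, Prod.mk.injEq]
          constructor
          · rintro (⟨h1, -⟩ | h1)
            · exact absurd h1 hji
            · exact h1
          · exact fun h1 => Or.inr h1
        rw [this]
        exact hJMind j
  have hSP : ∀ i, Prod.mk i ⁻¹' JM ⊆ E \ Prod.snd '' JP := by
    intro i e he
    have he' : (i, e) ∈ JM := he
    refine ⟨hE i ▸ (hJMind i).subset_ground he, ?_⟩
    rintro ⟨⟨j, e'⟩, hmem, rfl⟩
    have heq : ((j, e') : Θ × α) = (i, e') := hJinj (hJPsub hmem) (hJMsub he') rfl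
    rw [heq] at hmem
    exact Set.disjoint_left.1 hdjJ hmem he'
  refine ⟨E \ Prod.snd '' JP, Prod.snd '' JP, fun i => Prod.mk i ⁻¹' JM,
    fun i => Prod.mk i ⁻¹' JP, sdiff_union_of_subset hCE, disjoint_sdiff_left, hSP, ?_, ?_, ?_,
    ?_, ?_⟩
  · intro i j hij
    rw [Set.disjoint_left]
    intro e hei hej
    have heq : ((i, e) : Θ × α) = (j, e) := hJinj (hJMsub hei) (hJMsub hej) rfl
    exact hij (congrArg Prod.fst heq)
  · intro i
    rw [restrict_closure_eq _ (hSP i) (by rw [hE]; exact sdiff_subset)]
    exact inter_eq_right.2 (hspan i)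
  · intro i e he
    exact ⟨(i, e), he, rfl⟩
  · intro i
    have hb : (M i).IsBasis (Prod.mk i ⁻¹' JM) (E \ Prod.snd '' JP) :=
      (hJMind i).isBasis_of_subset_of_subset_closure (hSP i) (hspan i)
    have hcon : ((M i)✶ ↾ (Prod.snd '' JP))✶ = (M i) ／ (E \ Prod.snd '' JP) := by
      rw [← dual_delete_dual, delete_eq_restrict, dual_ground, hE, sdiff_sdiff_cancel_left hCE]
    rw [hcon, hb.contract_indep_iff]
    refine ⟨(hJM i).subset ?_, ?_⟩
    · rintro e (he | he)
      · exact hJPsub he
      · exact hJMsub he
    · rw [Set.disjoint_left]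
      rintro e ⟨-, heC⟩ he
      exact heC ⟨(i, e), he, rfl⟩
  · ext e
    simp only [mem_iUnion, mem_preimage, mem_image]
    constructor
    · rintro ⟨i, he⟩
      exact ⟨(i, e), he, rfl⟩
    · rintro ⟨⟨i, e'⟩, he, rfl⟩
      exact ⟨i, he⟩

end Vale.Agent.H18
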